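import Vale.Agent.P133.R2.H198.Ideals

/-!
P133 (helper198): countable decompositions of the primitive spectrum.
-/

namespace Vale.Agent.P133.H198

open Vale.Agent.P133.Statement Vale.Agent.P133F Vale.Agent.P133.H681 Vale.Agent.P133.H832

universe u

section

variable {A B : Type u} [NonUnitalCStarAlgebra A] [NonUnitalCStarAlgebra B]

theorem star_mul_self_eq_zero' {x : B} (h : star x * x = 0) : x = 0 :=
  CStarRing.star_mul_self_eq_zero_iff x |>.1 h

theorem mul_star_self_eq_zero' {x : B} (h : x * star x = 0) : x = 0 :=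
  CStarRing.mul_star_self_eq_zero_iff x |>.1 h

/-- the quotient by a closed ideal -/
theorem exists_quot (I : ClId A) :
    ∃ (B : Type u) (_ : NonUnitalCStarAlgebra B) (q : A →⋆ₙₐ[ℂ] B), Function.Surjective q ∧
      ∀ x, q x = 0 ↔ x ∈ I.S := by
  obtain ⟨B, i, -, -, q, h1, h2⟩ := exists_quotient I.S.toNonUnitalSubalgebra.toSubmodule
    I.closed I.left I.right (fun x hx => star_mem (S := NonUnitalStarSubalgebra ℂ A) hx)
  exact ⟨B, i, q, h1, h2⟩

/-- a closed ideal contains `x` if it contains `star x * x` -/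
theorem mem_of_star_mul_self (P : ClId A) {x : A} (h : star x * x ∈ P.S) : x ∈ P.S := by
  obtain ⟨C, i, q, -, h2⟩ := exists_quot P
  rw [← h2] at h ⊢
  rw [map_mul, map_star] at h
  exact star_mul_self_eq_zero' h

/-- a maximal purely infinite ideal contains all purely infinite ideals -/
theorem max_absorbs {I : ClId A} (hI : PI I) (hmax : ∀ J : ClId A, PI J → I.S ≤ J.S → J.S ≤ I.S)
    (T : ClId A) (hT : PI T) : T.S ≤ I.S := by
  obtain ⟨B, i, q, hq, hk⟩ := exists_quot I
  have hle : I.S ≤ ((T.map q hq).comap q).S := fun x hx => by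
    rw [ClId.mem_comap, (hk x).2 hx]; exact zero_mem _
  have hTE : T.S ≤ ((T.map q hq).comap q).S := fun x hx => by
    rw [ClId.mem_comap, ClId.mem_map]; exact ⟨x, hx, rfl⟩
  refine hTE.trans (hmax _ ?_ hle)
  refine pi_ext q I _ (T.map q hq) (fun x => ⟨fun hx => ⟨hle hx, (hk x).2 hx⟩, fun hx =>
    (hk x).1 hx.2⟩) (fun x hx => hx) (fun b hb => ?_) hI ?_
  · obtain ⟨a, rfl⟩ := hq b
    exact ⟨a, hb, rfl⟩
  · let _ := CStarAlgebra.spectralOrder T.S
    have _ := CStarAlgebra.spectralOrderedRing T.S
    exact pi_of_surj (T.map q hq) (q.comp T.incl)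
      (fun x => ClId.mem_map.2 ⟨x, x.2, rfl⟩)
      (fun x hx => by
        obtain ⟨y, hy, rfl⟩ := ClId.mem_map.1 hx
        exact ⟨⟨y, hy⟩, rfl⟩) hT

/-- the double annihilator of the ideal generated by `c` -/
noncomputable def ann2 (c : B) : ClId B where
  S :=
    { carrier := {n | ∀ m : B, (∀ y, c * y * m = 0) → ∀ y, n * y * m = 0}
      zero_mem' := fun m _ y => by rw [zero_mul, zero_mul]
      add_mem' := fun {a b} ha hb m hm y => by
        rw [add_mul, add_mul, ha m hm y, hb m hm y, add_zero]
      mul_mem' := fun {a b} ha _ m hm y => by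
        rw [mul_assoc a b y]; exact ha m hm (b * y)
      smul_mem' := fun k x hx m hm y => by
        rw [smul_mul_assoc, smul_mul_assoc, hx m hm y, smul_zero]
      star_mem' := fun {n} hn m hm y => by
        apply star_mul_self_eq_zero'
        have h := hn m hm (star n * y)
        calc star (star n * y * m) * (star n * y * m)
            = star m * star y * (n * (star n * y) * m) := by
              rw [star_mul, star_mul, star_star]; simp only [mul_assoc]
          _ = 0 := by rw [h, mul_zero] }
  closed := by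
    have h : {n : B | ∀ m : B, (∀ y, c * y * m = 0) → ∀ y, n * y * m = 0} =
        ⋂ m : B, ⋂ (_ : ∀ y, c * y * m = 0), ⋂ y : B, {n | n * y * m = 0} := by
      ext n; simp
    show IsClosed {n : B | ∀ m : B, (∀ y, c * y * m = 0) → ∀ y, n * y * m = 0}
    rw [h]
    refine isClosed_iInter fun m => isClosed_iInter fun _ => isClosed_iInter fun y => ?_
    exact isClosed_eq (by fun_prop) continuous_const
  left a x hx m hm y := by
    rw [mul_assoc a x y, mul_assoc a, hx m hm y, mul_zero]

theorem mem_ann2_self (c : B) : c ∈ (ann2 c).S := fun _ hm y => hm y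

theorem ann2_ne {c n : B} (hn : n ∈ (ann2 c).S) (h0 : n ≠ 0) : ∃ y, c * y * n ≠ 0 := by
  by_contra hcon
  push Not at hcon
  have h := hn n hcon (star n)
  apply h0
  have h1 : star (star n * n) * (star n * n) = 0 := by
    rw [star_mul, star_star]
    calc star n * n * (star n * n) = star n * (n * star n * n) := by simp only [mul_assoc]
      _ = 0 := by rw [h, mul_zero]
  exact star_mul_self_eq_zero' (star_mul_self_eq_zero' h1)

/-- cutting a positive element -/
theorem exists_cut {x : B} (hx : x ≠ 0) :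
    ∃ a c h : B, star a = a ∧ a = star x * x * h ∧ a = h * (star x * x) ∧ star c = c ∧ c ≠ 0 ∧
      a * c = c ∧ ‖a‖ ≤ 1 := by
  let _ := CStarAlgebra.spectralOrder B
  have _ := CStarAlgebra.spectralOrderedRing B
  set s : ℝ := ‖star x * x‖ with hs
  have hs0 : 0 < s := norm_pos_iff.2 fun h => hx (star_mul_self_eq_zero' h)
  set p : B := star x * x with hp
  have hp0 : 0 ≤ p := star_mul_self_nonneg x
  have hpsa : IsSelfAdjoint p := IsSelfAdjoint.of_nonneg hp0
  set f : ℝ → ℝ := fun t => max 0 (min 1 (4 * (t / s) - 1)) with hf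
  set w : ℝ → ℝ := fun t => f t / max t (s / 4) with hw
  set g : ℝ → ℝ := fun t => max 0 (2 * (t / s) - 1) with hg
  have hm : ∀ t : ℝ, (0 : ℝ) < max t (s / 4) := fun t => lt_max_of_lt_right (by positivity)
  have hfc : Continuous f := by rw [hf]; fun_prop
  have hgc : Continuous g := by rw [hg]; fun_prop
  have hwc : Continuous w := by
    rw [hw]
    exact hfc.div (continuous_id.max continuous_const) fun t => (hm t).ne'
  have hf0 : f 0 = 0 := by simp [hf]
  have hg0 : g 0 = 0 := by simp [hg]
  have hw0 : w 0 = 0 := by simp [hw, hf0]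
  have hfw : ∀ t, f t = t * w t := by
    intro t
    rcases le_or_gt t (s / 4) with h | h
    · have h1 : f t = 0 := by
        rw [hf]
        have : 4 * (t / s) - 1 ≤ 0 := by
          have : t / s ≤ 1 / 4 := by rw [div_le_iff₀ hs0]; linarith
          linarith
        exact max_eq_left ((min_le_right _ _).trans this)
      simp only [hw]
      rw [h1]; simp
    · simp only [hw]
      rw [max_eq_left h.le]
      have ht : t ≠ 0 := (lt_trans (by positivity) h).ne'
      field_simp
  have hfg : ∀ t, f t * g t = g t := by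
    intro t
    rcases le_or_gt (2 * (t / s) - 1) 0 with h | h
    · have : g t = 0 := max_eq_left h
      rw [this, mul_zero]
    · have : f t = 1 := by
        rw [hf]
        have h1 : (1 : ℝ) ≤ 4 * (t / s) - 1 := by linarith
        show max 0 (min 1 (4 * (t / s) - 1)) = 1
        rw [min_eq_left h1]; exact max_eq_right zero_le_one
      rw [this, one_mul]
  have ha : cfcₙ f p = p * cfcₙ w p := by
    have h1 : f = fun t => t * w t := funext hfw
    rw [h1, cfcₙ_mul (fun t : ℝ => t) w p (by fun_prop) rfl hwc.continuousOn hw0, cfcₙ_id' ℝ p]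
  have hasa : star (cfcₙ f p) = cfcₙ f p := (cfcₙ_predicate f p : IsSelfAdjoint _)
  have hwsa : star (cfcₙ w p) = cfcₙ w p := (cfcₙ_predicate w p : IsSelfAdjoint _)
  have hgsa : star (cfcₙ g p) = cfcₙ g p := (cfcₙ_predicate g p : IsSelfAdjoint _)
  refine ⟨cfcₙ f p, cfcₙ g p, cfcₙ w p, hasa, ha, ?_, hgsa, ?_, ?_, ?_⟩
  · have h2 := congrArg star ha
    rwa [star_mul, hwsa, hpsa.star_eq, hasa] at h2
  · -- nonzero
    have h1 := IsGreatest.norm_cfcₙ (fun t : ℝ => t) p (by fun_prop) rfl hpsa
    rw [cfcₙ_id' ℝ p] at h1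
    obtain ⟨t, ht, hts⟩ := h1.1
    have ht0 : 0 ≤ t := quasispectrum_nonneg_of_nonneg p hp0 t ht
    have hts' : t = s := by
      have : ‖t‖ = s := hts
      rwa [Real.norm_of_nonneg ht0] at this
    have h3 := norm_apply_le_norm_cfcₙ g p ht hgc.continuousOn hg0 hpsa
    intro h0
    rw [h0, norm_zero, hts'] at h3
    have h4 : g s = 1 := by
      show max 0 (2 * (s / s) - 1) = (1 : ℝ)
      rw [div_self hs0.ne']; norm_num
    rw [h4] at h3
    norm_num at h3
  · have h1 : cfcₙ f p * cfcₙ g p = cfcₙ (fun t => f t * g t) p :=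
      (cfcₙ_mul f g p hfc.continuousOn hf0 hgc.continuousOn hg0).symm
    rw [h1, show (fun t => f t * g t) = g from funext hfg]
  · refine norm_cfcₙ_le fun t _ => ?_
    have h1 : 0 ≤ f t := le_max_left _ _
    rw [Real.norm_of_nonneg h1]
    exact max_le zero_le_one (min_le_left _ _)

end

end Vale.Agent.P133.H198
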