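import Vale.Agent.P133.R2.H198.Final
import Vale.Agent.P133.H832.BuiltIB

/-!
P133 (helper198): the class of `AllWithPermanence`, closed under countable decompositions
(not used in a hand-in).
-/

open scoped ComplexOrder

namespace Vale.Agent.P133.H198

open Vale.Agent.P133.Statement Vale.Agent.P133F Vale.Agent.P133.H681 Vale.Agent.P133.H832

universe u

/-- The smallest class of C*-algebras that contains all C*-algebras of finite inductive dimension
(dimension zero: the lattice of closed two-sided ideals is tame, for example totally ordered by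
inclusion) and all C*-algebras of finite nuclear dimension, and is closed under COUNTABLE
DECOMPOSITIONS into locally closed pieces, extensions, dense unions of closed two-sided ideals,
bounded products of arbitrary families, `A ↦ C₀(X, A)`, `X` nonempty locally compact Hausdorff, and
algebras of sections of upper semicontinuous fields over finitely separated spaces. -/
inductive BuiltD : (A : Type u) → [NonUnitalCStarAlgebra A] → [PartialOrder A] →
    [StarOrderedRing A] → Prop
  /-- countably many locally closed pieces -/
  | pieces (S : ℕ → Type u) (A : Type u) [∀ k, NonUnitalCStarAlgebra (S k)]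
      [∀ k, PartialOrder (S k)] [∀ k, StarOrderedRing (S k)]
      [NonUnitalCStarAlgebra A] [PartialOrder A] [StarOrderedRing A]
      (h : IsCountableDecomposition S A) (hS : ∀ k, BuiltD (S k)) : BuiltD A
  /-- finite nuclear dimension -/
  | fin (A : Type u) [NonUnitalCStarAlgebra A] [PartialOrder A] [StarOrderedRing A] (d : ℕ)
      (hd : ND.NuclearDimensionLE A d) : BuiltD A
  /-- C*-algebras of finite inductive dimension; in dimension zero: with a tame lattice of closed
  two-sided ideals -/
  | dim (A : Type u) [NonUnitalCStarAlgebra A] [PartialOrder A] [StarOrderedRing A] (n : ℕ)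
      (hA : TameDimLE n A) : BuiltD A
  /-- extensions: `0 → J → A → B → 0` exact -/
  | ext (J A B : Type u) [NonUnitalCStarAlgebra J] [PartialOrder J] [StarOrderedRing J]
      [NonUnitalCStarAlgebra A] [PartialOrder A] [StarOrderedRing A]
      [NonUnitalCStarAlgebra B] [PartialOrder B] [StarOrderedRing B]
      (h : IsExtension J A B) (hJ : BuiltD J) (hB : BuiltD B) : BuiltD A
  /-- dense unions of closed two-sided ideals -/
  | union (I : Type u) (J : I → Type u) (A : Type u) [∀ i, NonUnitalCStarAlgebra (J i)]
      [∀ i, PartialOrder (J i)] [∀ i, StarOrderedRing (J i)]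
      [NonUnitalCStarAlgebra A] [PartialOrder A] [StarOrderedRing A]
      (h : IsDenseUnion J A) (hJ : ∀ i, BuiltD (J i)) : BuiltD A
  /-- bounded products -/
  | prod (I : Type u) (B : I → Type u) [∀ i, NonUnitalCStarAlgebra (B i)]
      [∀ i, PartialOrder (B i)] [∀ i, StarOrderedRing (B i)]
      [PartialOrder (BddProd B)] [StarOrderedRing (BddProd B)] (hB : ∀ i, BuiltD (B i)) :
      BuiltD (BddProd B)
  /-- continuous functions vanishing at infinity -/
  | func (A : Type u) [NonUnitalCStarAlgebra A] [PartialOrder A] [StarOrderedRing A]
      (X : Type u) [TopologicalSpace X] [LocallyCompactSpace X] [T2Space X] [Nonempty X]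
      [PartialOrder (FunAlg X A)] [StarOrderedRing (FunAlg X A)] (hA : BuiltD A) :
      BuiltD (FunAlg X A)
  /-- sections of an upper semicontinuous field with fibres `B t` -/
  | field (X : Type u) [TopologicalSpace X] (hX : FinitelySeparated X) (B : X → Type u)
      [∀ t, NonUnitalCStarAlgebra (B t)] [∀ t, PartialOrder (B t)] [∀ t, StarOrderedRing (B t)]
      (A : Type u) [NonUnitalCStarAlgebra A] [PartialOrder A] [StarOrderedRing A]
      (h : IsSectionAlgebra B A) (hB : ∀ t, BuiltD (B t)) : BuiltD A

theorem builtD_wpi {A : Type u} [NonUnitalCStarAlgebra A] [PartialOrder A] [StarOrderedRing A]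
    (hA : BuiltD A) : WeaklyPurelyInfinite A → PurelyInfinite A := by
  induction hA with
  | pieces S A h _ hS => exact fun hA => (decomp_wpi h).1.2 fun k => hS k ((decomp_wpi h).2 hA k)
  | fin A d hd => exact fun h => (Vale.Agent.P133F.main (ND.nd_of hd) h).1
  | dim A n hA => exact fun h => pi_of_eltPI (eltPI_dim_of (fun B _ _ _ => eltPI_tame) n A hA h)
  | ext J A B h _ _ hJ hB =>
    intro hA
    have h2 := (wpi_ext h).2 hA
    exact (wpi_ext h).1.2 ⟨hJ h2.1, hB h2.2⟩
  | union I J A h _ hJ =>
    obtain ⟨φ, hφ, hid, hd⟩ := h
    exact b_union φ hφ hid hd hJ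
  | prod I B _ hB => exact wpi_bddProd B hB
  | func A X _ hA => exact wpi_funAlg A X hA
  | field X hX B A h _ hB =>
    exact fun hA => (wpi_field hX h).1.2 fun t => hB t ((wpi_field hX h).2 hA t)

end Vale.Agent.P133.H198
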