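import Vale.Agent.P133.H832.Coincide
import Mathlib.Analysis.Convex.Extreme

/-!
P133 (helper198): decompositions of the primitive spectrum into countably many locally closed
pieces. Definitions for the hand-in `CountablePieces`.
-/

open scoped ComplexOrder

namespace Vale.Agent.P133.H198

open Vale.Agent.P133.Statement Vale.Agent.P133F Vale.Agent.P133.H832

universe u

/-- The positive linear functionals of norm at most one on `A`. -/
def QuasiStates (A : Type u) [NonUnitalCStarAlgebra A] : Set (A → ℂ) :=
  {φ | (∀ a b, φ (a + b) = φ a + φ b) ∧ (∀ (c : ℂ) (a : A), φ (c • a) = c * φ a) ∧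
    (∀ a, ‖φ a‖ ≤ ‖a‖) ∧ ∀ a, 0 ≤ φ (star a * a)}

/-- `φ` is a pure state of `A`: a nonzero extreme point of the set of all positive linear
functionals of norm at most one. -/
def IsPureState {A : Type u} [NonUnitalCStarAlgebra A] (φ : A → ℂ) : Prop :=
  φ ∈ (QuasiStates A).extremePoints ℝ ∧ ∃ a, φ a ≠ 0

/-- The `S k` are subquotients of `A`: `S k` is (isomorphic to) a closed two-sided ideal of a
quotient `B k` of `A`, that is `S k = L k / K k` with closed ideals `K k` (the kernel of `π k`) and
`L k` (the preimage of the ideal) of `A`; and the primitive spectrum of `A` is the union of the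
locally closed subsets `Prim (L k / K k)`: for every pure state `φ` of `A` there is `k` such that
`φ` vanishes on `K k` but not on `L k`. The pieces need not be disjoint, and no relation between
them is asked. -/
def IsCountableDecomposition (S : ℕ → Type u) (A : Type u) [∀ k, NonUnitalCStarAlgebra (S k)]
    [NonUnitalCStarAlgebra A] : Prop :=
  ∃ (B : ℕ → Type u) (_ : ∀ k, NonUnitalCStarAlgebra (B k)) (π : ∀ k, A →⋆ₙₐ[ℂ] B k)
    (ι : ∀ k, S k →⋆ₙₐ[ℂ] B k), (∀ k, Function.Surjective (π k)) ∧
    (∀ k, Function.Injective (ι k)) ∧ (∀ k (b : B k) (s : S k), ∃ t, ι k t = b * ι k s) ∧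
    ∀ φ : A → ℂ, IsPureState φ →
      ∃ k, (∀ a, π k a = 0 → φ a = 0) ∧ ∃ a s, π k a = ι k s ∧ φ a ≠ 0

/-- Countable decompositions: `A` is purely infinite if and only if all pieces `S k` are, and the
three notions coincide for `A` if they coincide for all `S k`. -/
def Decompositions : Prop :=
  ∀ (S : ℕ → Type u) (A : Type u) [∀ k, NonUnitalCStarAlgebra (S k)] [∀ k, PartialOrder (S k)]
    [∀ k, StarOrderedRing (S k)] [NonUnitalCStarAlgebra A] [PartialOrder A] [StarOrderedRing A],
    IsCountableDecomposition S A →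
    (PurelyInfinite A ↔ ∀ k, PurelyInfinite (S k)) ∧ ((∀ k, Coincide (S k)) → Coincide A)

/-- `A` has a nonzero closed two-sided ideal that is purely infinite. -/
def HasPIIdeal (A : Type u) [NonUnitalCStarAlgebra A] : Prop :=
  ∃ (J : Type u) (_ : NonUnitalCStarAlgebra J) (_ : PartialOrder J) (_ : StarOrderedRing J)
    (ι : J →⋆ₙₐ[ℂ] A), Function.Injective ι ∧ (∀ (a : A) (x : J), ∃ y, ι y = a * ι x) ∧
    (∃ x : J, x ≠ 0) ∧ PurelyInfinite J

end Vale.Agent.P133.H198
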