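import Vale.Agent.P133.R2.H198.Pure

/-!
P133 (helper198): countable decompositions, final statements.
-/

open scoped ComplexOrder

namespace Vale.Agent.P133.H198

open Vale.Agent.P133.Statement Vale.Agent.P133F Vale.Agent.P133.H681 Vale.Agent.P133.H832

universe u

section

variable {A : Type u} [NonUnitalCStarAlgebra A]

/-- Main theorem, abstract form. -/
theorem main_pure (K0 L : ℕ → ClId A)
    (hT : ∀ k, ∀ T : ClId A, T.S ≤ (L k).S → PI (T.inf (K0 k)) → PI T)
    (hcov : ∀ φ : A → ℂ, IsPureState φ →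
      ∃ k, (∀ a ∈ (K0 k).S, φ a = 0) ∧ ∃ a ∈ (L k).S, φ a ≠ 0) :
    ∃ I : ClId A, PI I ∧ ∀ a, a ∈ I.S := by
  obtain ⟨I, hI, hmax⟩ := exists_max (A := A)
  refine ⟨I, hI, ?_⟩
  by_contra hne
  push Not at hne
  obtain ⟨a0, ha0⟩ := hne
  obtain ⟨B, i, q, a, hq, h1, h2, h3, h4, h5⟩ := exists_seq K0 L hT hI hmax ha0
  obtain ⟨φ, hφ, hφa⟩ := exists_pure a h1 h2 h3 h4
  obtain ⟨k, hk, z, hz, hzφ⟩ := hcov _ (pure_comp q hq hφ)
  rcases h5 k with ⟨t, ht, htq⟩ | h
  · have h6 := hk (t * t) ((K0 k).left _ _ ht)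
    simp only [map_mul, htq] at h6
    rw [hφa k] at h6
    exact one_ne_zero h6
  · refine hzφ (qs_orth hφ.1.1 (h1 k) (h2 k) (hφa k) ?_)
    rw [← map_star]
    exact h _ (star_mem hz)

theorem eltPI_of_top [PartialOrder A] [StarOrderedRing A] {I : ClId A} (hI : PI I)
    (h : ∀ a, a ∈ I.S) : EltPI A := by
  let _ := CStarAlgebra.spectralOrder I.S
  have _ := CStarAlgebra.spectralOrderedRing I.S
  exact eltPI_of_surj I.incl (fun a => ⟨⟨a, h a⟩, rfl⟩) hI

/-- the range of an ideal inclusion -/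
noncomputable def rangeId {S B : Type u} [NonUnitalCStarAlgebra S] [NonUnitalCStarAlgebra B]
    (ι : S →⋆ₙₐ[ℂ] B) (hid : ∀ (b : B) (s : S), ∃ t, ι t = b * ι s) : ClId B where
  S := NonUnitalStarAlgHom.range ι
  closed := by
    have := closed_range ι
    rwa [← NonUnitalStarAlgHom.coe_range] at this
  left b x hx := by
    obtain ⟨s, rfl⟩ := (NonUnitalStarAlgHom.mem_range ι).1 hx
    exact (NonUnitalStarAlgHom.mem_range ι).2 (hid b s)

theorem mem_rangeId {S B : Type u} [NonUnitalCStarAlgebra S] [NonUnitalCStarAlgebra B]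
    {ι : S →⋆ₙₐ[ℂ] B} {hid : ∀ (b : B) (s : S), ∃ t, ι t = b * ι s} {b : B} :
    b ∈ (rangeId ι hid).S ↔ ∃ s, ι s = b := NonUnitalStarAlgHom.mem_range ι

end

theorem decomp_wpi {S : ℕ → Type u} {A : Type u} [∀ k, NonUnitalCStarAlgebra (S k)]
    [∀ k, PartialOrder (S k)] [∀ k, StarOrderedRing (S k)] [NonUnitalCStarAlgebra A]
    [PartialOrder A] [StarOrderedRing A] (h : IsCountableDecomposition S A) :
    (PurelyInfinite A ↔ ∀ k, PurelyInfinite (S k)) ∧
      (WeaklyPurelyInfinite A → ∀ k, WeaklyPurelyInfinite (S k)) := by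
  obtain ⟨B, iB, π, ι, hπ, hι, hid, hcov⟩ := h
  let _ : ∀ k, PartialOrder (B k) := fun k => CStarAlgebra.spectralOrder (B k)
  have _ : ∀ k, StarOrderedRing (B k) := fun k => CStarAlgebra.spectralOrderedRing (B k)
  refine ⟨⟨fun hA k => ?_, fun hS => ?_⟩, fun hA k => ?_⟩
  · exact pi_of_eltPI (eltPI_of_ideal (ι k) (hι k) (hid k)
      (eltPI_of_surj (π k) (hπ k) (eltPI_of A hA)))
  · obtain ⟨I, hI, htop⟩ := main_pure (fun k => (ClId.bot (B k)).comap (π k))
      (fun k => (rangeId (ι k) (hid k)).comap (π k)) (fun k T hTL hT0 => by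
        refine pi_ext (π k) _ T (T.map (π k) (hπ k)) (fun x => ?_) (fun x hx => ?_)
          (fun b hb => ClId.mem_map.1 hb) hT0 ?_
        · rw [ClId.mem_inf, ClId.mem_comap, ClId.mem_bot]
        · exact ClId.mem_map.2 ⟨x, hx, rfl⟩
        · refine pi_sub _ (rangeId (ι k) (hid k)) (fun x hx => ?_)
            (pi_of_surj _ (ι k) (fun s => mem_rangeId.2 ⟨s, rfl⟩)
              (fun x hx => mem_rangeId.1 hx) (eltPI_of _ (hS k)))
          obtain ⟨t, ht, rfl⟩ := ClId.mem_map.1 hx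
          exact hTL ht) (fun φ hφ => by
        obtain ⟨k, h1, a, s, has, hne⟩ := hcov φ hφ
        refine ⟨k, fun a ha => h1 a ?_, a, ?_, hne⟩
        · exact ClId.mem_bot.1 (ClId.mem_comap.1 ha)
        · exact ClId.mem_comap.2 (mem_rangeId.2 ⟨s, has.symm⟩))
    exact pi_of_eltPI (eltPI_of_top hI htop)
  · exact wpi_of_ideal (ι k) (hι k) (hid k) (wpi_of_surj (π k) (hπ k) hA)

theorem decompositions : Decompositions.{u} := fun _ _ _ _ _ _ _ _ h =>
  ⟨(decomp_wpi h).1, fun hS => coincide_of fun hA =>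
    (decomp_wpi h).1.2 fun k => (hS k).1.1 ((decomp_wpi h).2 hA k)⟩

/-- A C*-algebra is purely infinite if and only if every nonzero quotient has a nonzero purely
infinite closed ideal. -/
theorem pi_iff_quot (A : Type u) [NonUnitalCStarAlgebra A] [PartialOrder A] [StarOrderedRing A] :
    PurelyInfinite A ↔ ∀ (B : Type u) [NonUnitalCStarAlgebra B] (q : A →⋆ₙₐ[ℂ] B),
      Function.Surjective q → (∃ b : B, b ≠ 0) → HasPIIdeal B := by
  constructor
  · intro hA B _ q hq hb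
    let _ := CStarAlgebra.spectralOrder B
    have _ := CStarAlgebra.spectralOrderedRing B
    exact ⟨B, inferInstance, CStarAlgebra.spectralOrder B, CStarAlgebra.spectralOrderedRing B,
      NonUnitalStarAlgHom.id ℂ B, fun _ _ h => h, fun a x => ⟨a * x, rfl⟩, hb,
      pi_of_eltPI (eltPI_of_surj q hq (eltPI_of A hA))⟩
  · intro h
    obtain ⟨I, hI, hmax⟩ := exists_max (A := A)
    by_cases htop : ∀ a, a ∈ I.S
    · exact pi_of_eltPI (eltPI_of_top hI htop)
    push Not at htop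
    obtain ⟨a0, ha0⟩ := htop
    obtain ⟨B, i, q, hq, hk⟩ := exists_quot I
    obtain ⟨J, iJ, oJ, sJ, ι, hι, hid, ⟨x, hx⟩, hJ⟩ := h B q hq ⟨q a0, fun h => ha0 ((hk a0).1 h)⟩
    exfalso
    have hPJ : PI (rangeId ι hid) := pi_of_surj _ ι (fun s => mem_rangeId.2 ⟨s, rfl⟩)
      (fun x hx => mem_rangeId.1 hx) (eltPI_of _ hJ)
    have hle : I.S ≤ ((rangeId ι hid).comap q).S := fun y hy => by
      rw [ClId.mem_comap, (hk y).2 hy]; exact zero_mem _
    have hP : PI ((rangeId ι hid).comap q) := by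
      refine pi_ext q I _ (rangeId ι hid) (fun y => ⟨fun hy => ⟨hle hy, (hk y).2 hy⟩, fun hy =>
        (hk y).1 hy.2⟩) (fun y hy => hy) (fun b hb => ?_) hI hPJ
      obtain ⟨a, rfl⟩ := hq b
      exact ⟨a, hb, rfl⟩
    obtain ⟨a, ha⟩ := hq (ι x)
    have h1 : a ∈ I.S := hmax _ hP hle (ClId.mem_comap.2 (mem_rangeId.2 ⟨x, ha.symm⟩))
    have h2 : ι x = 0 := by rw [← ha]; exact (hk a).2 h1
    exact hx (hι (by rw [h2, map_zero]))

end Vale.Agent.P133.H198
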