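import Vale.Agent.P133.H832.BuiltB
import Vale.Agent.P133.H832.ChainQ
import Mathlib.Analysis.Normed.Group.ControlledClosure

/-!
P133 (helper198): closed ideals of a C*-algebra as C*-algebras, the largest purely infinite ideal.
-/

namespace Vale.Agent.P133.H198

open Vale.Agent.P133.Statement Vale.Agent.P133F Vale.Agent.P133.H681 Vale.Agent.P133.H832

universe u

/-- a closed two-sided ideal -/
structure ClId (A : Type u) [NonUnitalCStarAlgebra A] where
  S : NonUnitalStarSubalgebra ℂ A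
  closed : IsClosed (S : Set A)
  left : ∀ (a x : A), x ∈ S → a * x ∈ S

section

variable {A B : Type u} [NonUnitalCStarAlgebra A] [NonUnitalCStarAlgebra B]

theorem ClId.right (J : ClId A) (a x : A) (hx : x ∈ J.S) : x * a ∈ J.S := by
  have h := star_mem (J.left (star a) (star x) (star_mem hx))
  rwa [star_mul, star_star, star_star] at h

/-- the C*-algebra of a closed ideal -/
noncomputable instance ClId.inst (J : ClId A) : NonUnitalCStarAlgebra J.S :=
  NonUnitalStarSubalgebra.nonUnitalCStarAlgebra J.S (h_closed := J.closed)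

/-- the closed ideal is purely infinite -/
def PI (J : ClId A) : Prop :=
  @EltPI J.S (ClId.inst J) (CStarAlgebra.spectralOrder J.S) (CStarAlgebra.spectralOrderedRing J.S)

/-- the inclusion -/
def ClId.incl (J : ClId A) : J.S →⋆ₙₐ[ℂ] A := NonUnitalStarSubalgebraClass.subtype J.S

theorem ClId.incl_apply (J : ClId A) (x : J.S) : J.incl x = (x : A) := rfl

theorem pi_of_surj {C : Type u} [NonUnitalCStarAlgebra C] [PartialOrder C] [StarOrderedRing C]
    (J : ClId A) (f : C →⋆ₙₐ[ℂ] A) (hf : ∀ x, f x ∈ J.S) (hs : ∀ x ∈ J.S, ∃ c, f c = x)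
    (hC : EltPI C) : PI J := by
  let _ := CStarAlgebra.spectralOrder J.S
  have _ := CStarAlgebra.spectralOrderedRing J.S
  exact eltPI_of_surj (NonUnitalStarAlgHom.codRestrict f J.S hf)
    (fun x => by
      obtain ⟨c, hc⟩ := hs x x.2
      exact ⟨c, Subtype.ext hc⟩) hC

theorem pi_sub (J K : ClId A) (h : ∀ x ∈ J.S, x ∈ K.S) (hK : PI K) : PI J := by
  let _ := CStarAlgebra.spectralOrder J.S
  have _ := CStarAlgebra.spectralOrderedRing J.S
  let _ := CStarAlgebra.spectralOrder K.S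
  have _ := CStarAlgebra.spectralOrderedRing K.S
  exact eltPI_of_ideal (NonUnitalStarAlgHom.codRestrict J.incl K.S fun x => h x x.2)
    (fun x y hxy => Subtype.ext (congrArg (fun z : K.S => (z : A)) hxy))
    (fun a x => ⟨⟨(a : A) * (x : A), J.left _ _ x.2⟩, Subtype.ext rfl⟩) hK

theorem pi_ext (q : A →⋆ₙₐ[ℂ] B) (J0 J : ClId A) (K : ClId B)
    (h0 : ∀ x, x ∈ J0.S ↔ x ∈ J.S ∧ q x = 0) (h1 : ∀ x ∈ J.S, q x ∈ K.S)
    (h2 : ∀ b ∈ K.S, ∃ x ∈ J.S, q x = b) (hJ : PI J0) (hK : PI K) : PI J := by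
  let _ := CStarAlgebra.spectralOrder J.S
  have _ := CStarAlgebra.spectralOrderedRing J.S
  let _ := CStarAlgebra.spectralOrder K.S
  have _ := CStarAlgebra.spectralOrderedRing K.S
  let _ := CStarAlgebra.spectralOrder J0.S
  have _ := CStarAlgebra.spectralOrderedRing J0.S
  refine eltPI_ext (NonUnitalStarAlgHom.codRestrict J0.incl J.S fun x => ((h0 x).1 x.2).1)
    (NonUnitalStarAlgHom.codRestrict (q.comp J.incl) K.S fun x => h1 x x.2)
    (fun b => by
      obtain ⟨x, hx, hxb⟩ := h2 b b.2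
      exact ⟨⟨x, hx⟩, Subtype.ext hxb⟩) ?_ hJ hK
  intro a
  constructor
  · intro ha
    have h3 : q (a : A) = 0 := congrArg (fun z : K.S => (z : B)) ha
    exact ⟨⟨a, (h0 a).2 ⟨a.2, h3⟩⟩, Subtype.ext rfl⟩
  · rintro ⟨x, rfl⟩
    exact Subtype.ext ((h0 x).1 x.2).2

/-- the range of a *-homomorphism is closed -/
theorem closed_range (f : A →⋆ₙₐ[ℂ] B) : IsClosed (Set.range f) := by
  let g : NormedAddGroupHom A B := NormedAddGroupHom.mk (f : A → B) (fun a b => map_add f a b)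
    ⟨1, fun v => by rw [one_mul]; exact NonUnitalStarAlgHom.norm_apply_le f v⟩
  have hg : ∀ x, g x = f x := fun _ => rfl
  have h1 : g.SurjectiveOnWith g.range 1 := by
    rintro h ⟨x, rfl⟩
    rcases eq_or_ne (f x) 0 with h0 | h0
    · exact ⟨0, by rw [map_zero]; exact h0.symm, by simp⟩
    · obtain ⟨y, hy, hy1⟩ := exists_lift f x (norm_pos_iff.2 h0) le_rfl
      exact ⟨y, hy, by rw [one_mul]; exact hy1⟩
  have h2 := controlled_closure_of_complete one_pos one_pos h1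
  have h3 : closure (Set.range f) ⊆ Set.range f := by
    intro b hb
    obtain ⟨x, hx, -⟩ := h2 b (by exact hb)
    exact ⟨x, hx⟩
  exact closure_subset_iff_isClosed.1 h3

/-- the image of a closed ideal -/
noncomputable def ClId.map (q : A →⋆ₙₐ[ℂ] B) (hq : Function.Surjective q) (J : ClId A) :
    ClId B where
  S := J.S.map q
  closed := by
    have h := closed_range (q.comp J.incl)
    have h2 : (Set.range (q.comp J.incl)) = ((J.S.map q : NonUnitalStarSubalgebra ℂ B) : Set B) := by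
      ext b
      simp only [NonUnitalStarSubalgebra.coe_map]
      constructor
      · rintro ⟨x, rfl⟩
        exact ⟨x, x.2, rfl⟩
      · rintro ⟨x, hx, rfl⟩
        exact ⟨⟨x, hx⟩, rfl⟩
    rwa [h2] at h
  left b y hy := by
    obtain ⟨a, rfl⟩ := hq b
    rw [NonUnitalStarSubalgebra.mem_map] at hy ⊢
    obtain ⟨x, hx, rfl⟩ := hy
    exact ⟨a * x, J.left _ _ hx, map_mul q a x⟩

theorem ClId.mem_map {q : A →⋆ₙₐ[ℂ] B} {hq : Function.Surjective q} {J : ClId A} {b : B} :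
    b ∈ (J.map q hq).S ↔ ∃ x ∈ J.S, q x = b := NonUnitalStarSubalgebra.mem_map

theorem continuous_hom (q : A →⋆ₙₐ[ℂ] B) : Continuous q :=
  AddMonoidHomClass.continuous_of_bound q 1 fun x => by
    rw [one_mul]; exact NonUnitalStarAlgHom.norm_apply_le q x

/-- the preimage of a closed ideal -/
noncomputable def ClId.comap (q : A →⋆ₙₐ[ℂ] B) (K : ClId B) : ClId A where
  S := K.S.comap q
  closed := K.closed.preimage (continuous_hom q)
  left a x hx := by
    show q (a * x) ∈ K.S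
    rw [map_mul]
    exact K.left _ _ hx

theorem ClId.mem_comap {q : A →⋆ₙₐ[ℂ] B} {K : ClId B} {a : A} :
    a ∈ (K.comap q).S ↔ q a ∈ K.S := Iff.rfl

/-- intersection -/
noncomputable def ClId.inf (J K : ClId A) : ClId A where
  S := J.S ⊓ K.S
  closed := by
    show IsClosed ((J.S : Set A) ∩ (K.S : Set A))
    exact J.closed.inter K.closed
  left a x hx := ⟨J.left _ _ hx.1, K.left _ _ hx.2⟩

theorem ClId.mem_inf {J K : ClId A} {a : A} : a ∈ (J.inf K).S ↔ a ∈ J.S ∧ a ∈ K.S := Iff.rfl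

/-- the zero ideal -/
noncomputable def ClId.bot (A : Type u) [NonUnitalCStarAlgebra A] : ClId A where
  S := ⊥
  closed := by
    rw [NonUnitalStarAlgebra.coe_bot]
    exact isClosed_singleton
  left a x hx := by
    rw [NonUnitalStarAlgebra.mem_bot] at hx ⊢
    rw [hx, mul_zero]

theorem ClId.mem_bot {a : A} : a ∈ (ClId.bot A).S ↔ a = 0 := NonUnitalStarAlgebra.mem_bot

/-- the union of a nonempty chain of closed ideals -/
theorem exists_chain_union (c : Set (NonUnitalStarSubalgebra ℂ A))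
    (hc : ∀ S ∈ c, ∃ J : ClId A, J.S = S) (hch : IsChain (· ≤ ·) c)
    {S0 : NonUnitalStarSubalgebra ℂ A} (h0 : S0 ∈ c) :
    ∃ J : ClId A, (∀ S ∈ c, S ≤ J.S) ∧
      ∀ x ∈ J.S, ∀ ε : ℝ, 0 < ε → ∃ S ∈ c, ∃ y ∈ S, ‖x - y‖ < ε := by
  have hdir : ∀ {S T}, S ∈ c → T ∈ c → ∀ {x y : A}, x ∈ S → y ∈ T → ∃ R ∈ c, x ∈ R ∧ y ∈ R := by
    intro S T hS hT x y hx hy
    rcases hch.total hS hT with h | h
    · exact ⟨T, hT, h hx, hy⟩
    · exact ⟨S, hS, hx, h hy⟩
  let U : NonUnitalStarSubalgebra ℂ A :=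
    { carrier := {x | ∃ S ∈ c, x ∈ S}
      zero_mem' := ⟨S0, h0, zero_mem S0⟩
      add_mem' := by
        rintro x y ⟨S, hS, hx⟩ ⟨T, hT, hy⟩
        obtain ⟨R, hR, h1, h2⟩ := hdir hS hT hx hy
        exact ⟨R, hR, add_mem h1 h2⟩
      mul_mem' := by
        rintro x y ⟨S, hS, hx⟩ ⟨T, hT, hy⟩
        obtain ⟨R, hR, h1, h2⟩ := hdir hS hT hx hy
        exact ⟨R, hR, mul_mem h1 h2⟩
      smul_mem' := by
        rintro k x ⟨S, hS, hx⟩
        exact ⟨S, hS, SMulMemClass.smul_mem k hx⟩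
      star_mem' := by
        rintro x ⟨S, hS, hx⟩
        exact ⟨S, hS, star_mem hx⟩ }
  have hU : ∀ x, x ∈ U ↔ ∃ S ∈ c, x ∈ S := fun _ => Iff.rfl
  have hUl : ∀ a x : A, x ∈ U → a * x ∈ U := by
    rintro a x ⟨S, hS, hx⟩
    obtain ⟨J, rfl⟩ := hc S hS
    exact ⟨J.S, hS, J.left a x hx⟩
  refine ⟨⟨U.topologicalClosure, U.isClosed_topologicalClosure, ?_⟩, ?_, ?_⟩
  · intro a x hx
    have h1 : Set.MapsTo (fun y => a * y) (closure (U : Set A)) (closure (U : Set A)) :=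
      Set.MapsTo.closure (fun y hy => hUl a y hy) (continuous_const_mul a)
    exact h1 hx
  · intro S hS x hx
    exact subset_closure (show x ∈ (U : Set A) from ⟨S, hS, hx⟩)
  · intro x hx ε hε
    obtain ⟨y, ⟨S, hS, hy⟩, hxy⟩ := Metric.mem_closure_iff.1 (show x ∈ closure (U : Set A) from hx)
      ε hε
    exact ⟨S, hS, y, hy, by rwa [dist_eq_norm] at hxy⟩

theorem pi_bot : PI (ClId.bot A) := by
  let _ := CStarAlgebra.spectralOrder (ClId.bot A).S
  have _ := CStarAlgebra.spectralOrderedRing (ClId.bot A).S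
  have h : ∀ z : (ClId.bot A).S, z = 0 := fun z => Subtype.ext (ClId.mem_bot.1 z.2)
  intro x _ ε hε
  refine ⟨0, 0, ?_, ?_, ?_⟩
  · rw [h x]; simpa using hε
  · rw [h x]; simpa using hε
  · rw [h x]; simpa using hε

/-- there is a maximal purely infinite ideal -/
theorem exists_max : ∃ I : ClId A, PI I ∧ ∀ J : ClId A, PI J → I.S ≤ J.S → J.S ≤ I.S := by
  obtain ⟨m, -, hm⟩ := zorn_le_nonempty₀ {S | ∃ J : ClId A, J.S = S ∧ PI J} (fun c hc hch S0 h0 => by
    obtain ⟨J, hJ1, hJ2⟩ := exists_chain_union c (fun S hS => by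
      obtain ⟨J, h, -⟩ := hc hS; exact ⟨J, h⟩) hch h0
    refine ⟨J.S, ⟨J, rfl, ?_⟩, hJ1⟩
    choose K hK hKP using fun S : c => hc S.2
    let _ := CStarAlgebra.spectralOrder J.S
    have _ := CStarAlgebra.spectralOrderedRing J.S
    let o : ∀ S : c, PartialOrder (K S).S := fun S => CStarAlgebra.spectralOrder (K S).S
    have so : ∀ S : c, StarOrderedRing (K S).S := fun S =>
      CStarAlgebra.spectralOrderedRing (K S).S
    have hle : ∀ (S : c) (x : (K S).S), (x : A) ∈ J.S := fun S x =>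
      hJ1 S S.2 (by rw [← hK S]; exact x.2)
    refine eltPI_union (I := fun S : c => (K S).S)
      (fun S => NonUnitalStarAlgHom.codRestrict (K S).incl J.S (hle S))
      (fun S a x => ⟨⟨(a : A) * (x : A), (K S).left _ _ x.2⟩, Subtype.ext rfl⟩) ?_
      (fun S => hKP S)
    rw [Metric.dense_iff]
    intro x r hr
    obtain ⟨S, hS, y, hy, hxy⟩ := hJ2 x x.2 r hr
    have hy' : y ∈ (K ⟨S, hS⟩).S := by rw [hK ⟨S, hS⟩]; exact hy
    refine ⟨⟨y, hle ⟨S, hS⟩ ⟨y, hy'⟩⟩, ?_, Set.mem_iUnion.2 ⟨⟨S, hS⟩, ⟨y, hy'⟩, Subtype.ext rfl⟩⟩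
    rw [Metric.mem_ball, dist_comm, dist_eq_norm]
    exact hxy) _ ⟨ClId.bot A, rfl, pi_bot⟩
  obtain ⟨⟨I, rfl, hI⟩, hmax⟩ := hm
  exact ⟨I, hI, fun J hJ hle => hmax ⟨J, rfl, hJ⟩ hle⟩

end

end Vale.Agent.P133.H198
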