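import Vale.Agent.P133.R2.H198.Baire

/-!
P133 (helper198): countable decompositions of the primitive spectrum, main theorem.
-/

namespace Vale.Agent.P133.H198

open Vale.Agent.P133.Statement Vale.Agent.P133F Vale.Agent.P133.H681 Vale.Agent.P133.H832

universe u

section

variable {A B : Type u} [NonUnitalCStarAlgebra A] [NonUnitalCStarAlgebra B]

/-- the step: below every nonzero element there is a nonzero one in `K0` or orthogonal to `L` -/
theorem exists_step {I : ClId A} (habs : ∀ T : ClId A, PI T → T.S ≤ I.S) (hI : PI I)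
    (q : A →⋆ₙₐ[ℂ] B) (hq : Function.Surjective q) (hk : ∀ x, q x = 0 ↔ x ∈ I.S)
    (K0 L : ClId A) (hT : ∀ T : ClId A, T.S ≤ L.S → PI (T.inf K0) → PI T)
    {c : B} (hc : star c = c) (hc0 : c ≠ 0) :
    ∃ w : B, w * c ≠ 0 ∧ ((∃ t ∈ K0.S, q t = star (w * c) * (w * c)) ∨
      ∀ z ∈ L.S, star (w * c) * (w * c) * q z = 0) := by
  by_contra hcon
  push Not at hcon
  set T : ClId A := L.inf ((ann2 c).comap q) with hTdef
  have hTI : PI (T.inf K0) := by
    refine pi_sub _ I (fun t ht => ?_) hI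
    rw [← hk]
    by_contra hne
    obtain ⟨y, hy⟩ := ann2_ne ht.1.2 hne
    have hw : star (y * q t) * c ≠ 0 := by
      intro h
      apply hy
      have := congrArg star h
      rwa [star_mul, star_star, hc, star_zero, ← mul_assoc] at this
    obtain ⟨c', rfl⟩ := hq c
    obtain ⟨y', rfl⟩ := hq y
    refine (hcon _ hw).1 (star (star (y' * t) * c') * (star (y' * t) * c')) ?_ ?_
    · refine K0.left _ _ (K0.right _ _ (star_mem (K0.left _ _ ht.2)))
    · simp only [map_mul, map_star]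
  have hTP : PI T := hT T (fun x hx => hx.1) hTI
  have hTle := habs T hTP
  have h1 : ∀ z ∈ L.S, c * q z = 0 := by
    intro z hz
    obtain ⟨c', rfl⟩ := hq c
    rw [← map_mul, hk]
    apply hTle
    exact ⟨L.left _ _ hz, by
      show q (c' * z) ∈ (ann2 (q c')).S
      rw [map_mul]; exact (ann2 _).right _ _ (mem_ann2_self _)⟩
  have hcc : c * c ≠ 0 := fun h => hc0 (star_mul_self_eq_zero' (by rwa [hc]))
  obtain ⟨z, hz, hz0⟩ := (hcon c hcc).2
  apply hz0
  rw [star_mul, hc, mul_assoc, mul_assoc c c (q z), h1 z hz, mul_zero, mul_zero]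

/-- the nested sequence in the quotient by the largest purely infinite ideal -/
theorem exists_seq (K0 L : ℕ → ClId A)
    (hT : ∀ k, ∀ T : ClId A, T.S ≤ (L k).S → PI (T.inf (K0 k)) → PI T) {I : ClId A} (hI : PI I)
    (hmax : ∀ J : ClId A, PI J → I.S ≤ J.S → J.S ≤ I.S) {a0 : A} (ha0 : a0 ∉ I.S) :
    ∃ (B : Type u) (_ : NonUnitalCStarAlgebra B) (q : A →⋆ₙₐ[ℂ] B) (a : ℕ → B),
      Function.Surjective q ∧ (∀ k, star (a k) = a k) ∧ (∀ k, ‖a k‖ ≤ 1) ∧
      (∀ k, a k * a (k + 1) = a (k + 1)) ∧ (∀ k, a k ≠ 0) ∧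
      ∀ k, (∃ t ∈ (K0 k).S, q t = a k) ∨ ∀ z ∈ (L k).S, a k * q z = 0 := by
  have habs : ∀ T : ClId A, PI T → T.S ≤ I.S := max_absorbs hI hmax
  obtain ⟨B, i, q, hq, hk⟩ := exists_quot I
  -- the initial element
  have hc0 : star (star (q a0) * q a0) = star (q a0) * q a0 := by rw [star_mul, star_star]
  have hc0' : star (q a0) * q a0 ≠ 0 := fun h => ha0 ((hk a0).1 (star_mul_self_eq_zero' h))
  have step : ∀ (k : ℕ) (c : {c : B // star c = c ∧ c ≠ 0}), ∃ (a : B)
      (c' : {c : B // star c = c ∧ c ≠ 0}) (w : B), star a = a ∧ a = c.1 * w ∧ a * c'.1 = c'.1 ∧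
      ((∃ t ∈ (K0 k).S, q t = a) ∨ ∀ z ∈ (L k).S, a * q z = 0) ∧ ‖a‖ ≤ 1 := by
    intro k c
    obtain ⟨w, hw0, hw⟩ := exists_step habs hI q hq hk (K0 k) (L k) (hT k) c.2.1 c.2.2
    obtain ⟨a, c', h, h1, h2, h3, h4, h5, h6, h7⟩ := exists_cut hw0
    refine ⟨a, ⟨c', h4, h5⟩, star w * (w * c.1) * h, h1, ?_, h6, ?_, h7⟩
    · rw [h2, star_mul, c.2.1]; simp only [mul_assoc]
    · rcases hw with ⟨t, ht, htq⟩ | hw
      · obtain ⟨h', rfl⟩ := hq h
        exact Or.inl ⟨t * h', (K0 k).right _ _ ht, by rw [map_mul, htq, h2]⟩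
      · exact Or.inr fun z hz => by rw [h3, mul_assoc, hw z hz, mul_zero]
  choose fa fc fw h1 h2 h3 h4 h5 using step
  let cs : ℕ → {c : B // star c = c ∧ c ≠ 0} := fun n =>
    Nat.rec ⟨star (q a0) * q a0, hc0, hc0'⟩ (fun k c => fc k c) n
  have hac : ∀ k, fa k (cs k) * (cs (k + 1)).1 = (cs (k + 1)).1 := fun k => h3 k (cs k)
  refine ⟨B, i, q, fun k => fa k (cs k), hq, fun k => h1 k (cs k), fun k => h5 k (cs k),
    fun k => ?_, fun k h => (cs (k + 1)).2.2 (by
      have h' : fa k (cs k) = 0 := h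
      rw [← hac k, h', zero_mul]), fun k => h4 k (cs k)⟩
  have h := h2 (k + 1) (cs (k + 1))
  show fa k (cs k) * fa (k + 1) (cs (k + 1)) = fa (k + 1) (cs (k + 1))
  rw [h, ← mul_assoc, hac k]

end

end Vale.Agent.P133.H198
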