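import Vale.Agent.P133.R2.H198.Main
import Vale.Agent.P133.R2.H198.Defs
import Mathlib.Analysis.Convex.KreinMilman
import Mathlib.Analysis.CStarAlgebra.ApproximateUnit

/-!
P133 (helper198): pure states.
-/

open scoped ComplexOrder

namespace Vale.Agent.P133.H198

open Vale.Agent.P133.Statement Vale.Agent.P133F Vale.Agent.P133.H681 Vale.Agent.P133.H832

universe u

section

variable {A B : Type u} [NonUnitalCStarAlgebra A] [NonUnitalCStarAlgebra B]

theorem qs_zero {φ : A → ℂ} (h : φ ∈ QuasiStates A) : φ 0 = 0 := by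
  have := h.2.1 0 0
  rwa [zero_smul, zero_mul] at this

theorem qs_sub {φ : A → ℂ} (h : φ ∈ QuasiStates A) (a b : A) : φ (a - b) = φ a - φ b := by
  have h1 : a - b = a + (-1 : ℂ) • b := by rw [neg_one_smul, sub_eq_add_neg]
  rw [h1, h.1, h.2.1]; ring

theorem eq_zero_of_line {c z : ℂ} (h : ∀ t : ℝ, 0 ≤ c + (t : ℂ) * z) : z = 0 := by
  have hre : ∀ t : ℝ, 0 ≤ c.re + t * z.re := by
    intro t
    have := (Complex.le_def.1 (h t)).1
    simpa using this
  have him : ∀ t : ℝ, 0 = c.im + t * z.im := by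
    intro t
    have := (Complex.le_def.1 (h t)).2
    simpa using this
  apply Complex.ext
  · show z.re = 0
    by_contra hne
    have h1 := hre (-(c.re + 1) / z.re)
    rw [div_mul_cancel₀ _ hne] at h1
    linarith
  · show z.im = 0
    have h0 := him 0
    have h1 := him 1
    linarith

/-- Cauchy-Schwarz, degenerate case -/
theorem qs_null {φ : A → ℂ} (h : φ ∈ QuasiStates A) {x : A} (hx : φ (star x * x) = 0) :
    φ x = 0 := by
  have h1 : ∀ e : A, φ (star e * x) = 0 := by
    intro e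
    have hr : φ (star e * x) + φ (star x * e) = 0 := by
      refine eq_zero_of_line (c := φ (star e * e)) fun t => ?_
      have h2 := h.2.2.2 (e + (t : ℂ) • x)
      have h3 : star (e + (t : ℂ) • x) * (e + (t : ℂ) • x) =
          star e * e + ((t : ℂ) • (star e * x) + ((t : ℂ) • (star x * e) +
            ((t : ℂ) * t) • (star x * x))) := by
        rw [star_add, star_smul, add_mul, mul_add, mul_add, mul_smul_comm, smul_mul_assoc,
          smul_mul_smul_comm]
        simp only [Complex.star_def, Complex.conj_ofReal]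
        abel
      rw [h3, h.1, h.1, h.1, h.2.1, h.2.1, h.2.1, hx] at h2
      convert h2 using 1
      ring
    have hi : Complex.I * φ (star e * x) - Complex.I * φ (star x * e) = 0 := by
      refine eq_zero_of_line (c := φ (star e * e)) fun t => ?_
      have h2 := h.2.2.2 (e + (t * Complex.I : ℂ) • x)
      have h3 : star (e + (t * Complex.I : ℂ) • x) * (e + (t * Complex.I : ℂ) • x) =
          star e * e + ((t * Complex.I : ℂ) • (star e * x) + ((-(t * Complex.I) : ℂ) • (star x * e) +
            ((-(t * Complex.I) : ℂ) * (t * Complex.I)) • (star x * x))) := by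
        rw [star_add, star_smul, add_mul, mul_add, mul_add, mul_smul_comm, smul_mul_assoc,
          smul_mul_smul_comm]
        simp only [Complex.star_def, map_mul, Complex.conj_ofReal, Complex.conj_I, mul_neg]
        abel
      rw [h3, h.1, h.1, h.1, h.2.1, h.2.1, h.2.1, hx] at h2
      convert h2 using 1
      ring
    have h4 : φ (star e * x) - φ (star x * e) = 0 := by
      have : Complex.I * (φ (star e * x) - φ (star x * e)) = 0 := by rw [mul_sub]; exact hi
      exact (mul_eq_zero.1 this).resolve_left Complex.I_ne_zero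
    have h5 : (2 : ℂ) * φ (star e * x) = 0 := by linear_combination hr + h4
    exact (mul_eq_zero.1 h5).resolve_left two_ne_zero
  let _ := CStarAlgebra.spectralOrder A
  have _ := CStarAlgebra.spectralOrderedRing A
  have hl := CStarAlgebra.increasingApproximateUnit A
  rw [← norm_le_zero_iff]
  refine le_of_forall_pos_le_add fun ε hε => ?_
  have h6 := hl.tendsto_mul_right x
  have h7 := (Metric.tendsto_nhds.1 h6 ε hε).and hl.eventually_star_eq
  have := hl.neBot
  obtain ⟨e, he, hes⟩ := h7.exists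
  have h8 : φ x = φ (x - e * x) := by
    rw [qs_sub h, ← hes, h1 e, sub_zero]
  rw [h8, zero_add]
  refine (h.2.2.1 _).trans ?_
  rw [dist_eq_norm, norm_sub_rev] at he
  exact he.le

theorem qs_compact : IsCompact (QuasiStates A) := by
  have h1 : IsCompact (Set.univ.pi fun a : A => Metric.closedBall (0 : ℂ) ‖a‖) :=
    isCompact_univ_pi fun a => isCompact_closedBall _ _
  refine h1.of_isClosed_subset ?_ fun φ hφ a _ => by
    rw [mem_closedBall_zero_iff]; exact hφ.2.2.1 a
  have hle : IsClosed {z : ℂ | 0 ≤ z} := by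
    have : {z : ℂ | 0 ≤ z} = {z | 0 ≤ z.re} ∩ {z | 0 = z.im} := by
      ext z; simp [Complex.le_def]
    rw [this]
    exact (isClosed_le continuous_const Complex.continuous_re).inter
      (isClosed_eq continuous_const Complex.continuous_im)
  unfold QuasiStates
  simp only [Set.ofPred_and, Set.ofPred_forall]
  refine IsClosed.inter (isClosed_iInter fun a => isClosed_iInter fun b =>
    isClosed_eq (continuous_apply _) (by fun_prop)) ?_
  refine IsClosed.inter (isClosed_iInter fun c => isClosed_iInter fun a =>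
    isClosed_eq (continuous_apply _) (by fun_prop)) ?_
  refine IsClosed.inter (isClosed_iInter fun a =>
    isClosed_le (continuous_apply a).norm continuous_const) ?_
  refine isClosed_iInter fun a => ?_
  have hc : Continuous fun φ : A → ℂ => φ (star a * a) := continuous_apply (star a * a)
  exact hle.preimage hc

/-- a functional of norm one with value one at the unit is positive -/
theorem dual_pos {M : Type u} [CStarAlgebra M] [PartialOrder M] [StarOrderedRing M]
    (f : M →L[ℂ] ℂ) (hf : ‖f‖ ≤ 1) (hf1 : f 1 = 1) (z : M) : 0 ≤ f (star z * z) := by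
  set h := star z * z with hh
  have h0 : 0 ≤ h := star_mul_self_nonneg z
  have hsa : star h = h := (IsSelfAdjoint.of_nonneg h0).star_eq
  have hb : ∀ x : M, ‖f x‖ ≤ ‖x‖ := fun x =>
    (f.le_opNorm x).trans (by nlinarith [norm_nonneg x])
  have him : (f h).im = 0 := by
    have key : ∀ t : ℝ, ((f h).im + t) ^ 2 ≤ ‖h‖ ^ 2 + t ^ 2 * ‖(1 : M)‖ := by
      intro t
      have h1 : ‖f (h + (t * Complex.I : ℂ) • (1 : M))‖ ^ 2 ≤ ‖h‖ ^ 2 + t ^ 2 * ‖(1 : M)‖ := by
        have h2 := hb (h + (t * Complex.I : ℂ) • (1 : M))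
        have h3 : ‖h + (t * Complex.I : ℂ) • (1 : M)‖ ^ 2 =
            ‖h * h + ((t : ℂ) ^ 2) • (1 : M)‖ := by
          rw [sq, ← CStarRing.norm_star_mul_self]
          congr 1
          rw [star_add, star_smul, star_one, hsa, add_mul, mul_add, mul_add, mul_smul_comm,
            smul_mul_assoc, smul_mul_smul_comm, mul_one, one_mul, mul_one]
          simp only [Complex.star_def, map_mul, Complex.conj_ofReal, Complex.conj_I]
          have h5 : ((t : ℂ) * -Complex.I) * (t * Complex.I) = (t : ℂ) ^ 2 := by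
            linear_combination (-(t : ℂ) ^ 2) * Complex.I_mul_I
          rw [h5]
          have h6 : ((t : ℂ) * -Complex.I) • h = -((t * Complex.I : ℂ) • h) := by
            rw [← neg_smul]; congr 1; ring
          rw [h6]; abel
        calc ‖f (h + (t * Complex.I : ℂ) • (1 : M))‖ ^ 2
            ≤ ‖h + (t * Complex.I : ℂ) • (1 : M)‖ ^ 2 := by gcongr
          _ = ‖h * h + ((t : ℂ) ^ 2) • (1 : M)‖ := h3
          _ ≤ ‖h‖ * ‖h‖ + ‖((t : ℂ) ^ 2)‖ * ‖(1 : M)‖ :=
              (norm_add_le _ _).trans (add_le_add (norm_mul_le _ _) (norm_smul_le _ _))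
          _ = ‖h‖ ^ 2 + t ^ 2 * ‖(1 : M)‖ := by
              rw [norm_pow, Complex.norm_real, Real.norm_eq_abs, sq_abs]; ring
      have h4 : ((f h).im + t) ^ 2 ≤ ‖f (h + (t * Complex.I : ℂ) • (1 : M))‖ ^ 2 := by
        rw [map_add, map_smul, hf1, smul_eq_mul, mul_one, ← Complex.normSq_eq_norm_sq,
          Complex.normSq_apply]
        simp
        nlinarith [sq_nonneg (f h).re]
      exact h4.trans h1
    have hone : ‖(1 : M)‖ ≤ 1 := by
      rcases subsingleton_or_nontrivial M with hM | hM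
      · rw [Subsingleton.elim (1 : M) 0, norm_zero]; exact zero_le_one
      · rw [norm_one]
    by_contra hne
    have h2 := key (‖h‖ ^ 2 / (f h).im)
    have h3 : (‖h‖ ^ 2 / (f h).im) ^ 2 * ‖(1 : M)‖ ≤ (‖h‖ ^ 2 / (f h).im) ^ 2 := by
      nlinarith [sq_nonneg (‖h‖ ^ 2 / (f h).im)]
    have h4 : ((f h).im + ‖h‖ ^ 2 / (f h).im) ^ 2 =
        (f h).im ^ 2 + 2 * ‖h‖ ^ 2 + (‖h‖ ^ 2 / (f h).im) ^ 2 := by
      field_simp
      ring
    have h5 : 0 < (f h).im ^ 2 := by positivity
    nlinarith [sq_nonneg ‖h‖]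
  have hre : 0 ≤ (f h).re := by
    have h1 : ‖algebraMap ℝ M ‖h‖ - h‖ ≤ ‖h‖ := by
      have h2 : h ≤ algebraMap ℝ M ‖h‖ := IsSelfAdjoint.le_algebraMap_norm_self
        (IsSelfAdjoint.of_nonneg h0)
      have h3 : algebraMap ℝ M ‖h‖ - h ≤ algebraMap ℝ M ‖h‖ := sub_le_self _ h0
      exact (CStarAlgebra.norm_le_iff_le_algebraMap _ (norm_nonneg h) (sub_nonneg.2 h2)).2 h3
    have h2 := (hb _).trans h1
    have h3 : f (algebraMap ℝ M ‖h‖) = (‖h‖ : ℂ) := by
      rw [Algebra.algebraMap_eq_smul_one]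
      have : (‖h‖ : ℝ) • (1 : M) = ((‖h‖ : ℝ) : ℂ) • (1 : M) := (Complex.coe_smul _ _).symm
      rw [this, map_smul, hf1, smul_eq_mul, mul_one]
    rw [map_sub, h3] at h2
    have h4 := (Complex.abs_re_le_norm _).trans h2
    rw [Complex.sub_re, Complex.ofReal_re] at h4
    have := (abs_le.1 h4).2
    linarith
  exact Complex.le_def.2 ⟨hre, him.symm⟩

/-- norming functionals -/
theorem exists_norming (x : A) : ∃ φ ∈ QuasiStates A, φ (star x * x) = (‖star x * x‖ : ℂ) := by
  let _ : PartialOrder (Unitization ℂ A) := CStarAlgebra.spectralOrder _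
  have _ : StarOrderedRing (Unitization ℂ A) := CStarAlgebra.spectralOrderedRing _
  have hnt : Nontrivial (Unitization ℂ A) := inferInstance
  set P : Unitization ℂ A := ((star x * x : A) : Unitization ℂ A) with hP
  have hPn : ‖P‖ = ‖star x * x‖ := Unitization.norm_inr _
  have hP0 : 0 ≤ P := by
    have : P = star (x : Unitization ℂ A) * (x : Unitization ℂ A) := by
      rw [hP, Unitization.inr_mul, Unitization.inr_star]
    rw [this]; exact star_mul_self_nonneg _
  have hne : (1 + P : Unitization ℂ A) ≠ 0 := by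
    intro h
    have h1 : (1 : Unitization ℂ A) ≤ 0 := by
      rw [← h]; exact le_add_of_nonneg_right hP0
    have h2 : (1 : Unitization ℂ A) = 0 := le_antisymm h1 zero_le_one
    exact one_ne_zero h2
  have hnorm : 1 + ‖P‖ ≤ ‖1 + P‖ := by
    have h1 := CStarAlgebra.norm_mem_spectrum_of_nonneg hP0
    have h2 : 1 + ‖P‖ ∈ spectrum ℝ (1 + P) := by
      have := (spectrum.add_mem_add_iff (a := P) (r := ‖P‖) (s := (1 : ℝ))).2 h1
      rw [map_one] at this
      rwa [add_comm ‖P‖ 1, ] at this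
    have h3 := spectrum.norm_le_norm_of_mem h2
    rwa [Real.norm_of_nonneg (by positivity)] at h3
  obtain ⟨f, hf, hfx⟩ := exists_dual_vector ℂ (1 + P) (norm_ne_zero_iff.2 hne)
  have hb : ∀ y, ‖f y‖ ≤ ‖y‖ := fun y => by
    have := f.le_opNorm y
    rwa [hf, one_mul] at this
  have h1 : f 1 + f P = (‖1 + P‖ : ℂ) := by rw [← map_add, hfx]; rfl
  have h2 : ‖f 1‖ ≤ 1 := (hb 1).trans (by rw [norm_one])
  have h3 : ‖f P‖ ≤ ‖P‖ := hb P
  have h4 : (f 1).re + (f P).re = ‖1 + P‖ := by
    have := congrArg Complex.re h1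
    simpa using this
  have h5 : (f 1).re ≤ 1 := (Complex.re_le_norm _).trans h2
  have h6 : (f P).re ≤ ‖P‖ := (Complex.re_le_norm _).trans h3
  have h7 : (f 1).re = 1 := by linarith
  have h8 : (f P).re = ‖P‖ := by linarith
  have hval : ∀ (z : ℂ) (r : ℝ), 0 ≤ r → z.re = r → ‖z‖ ≤ r → z = r := by
    intro z r hr hz hzn
    apply Complex.ext
    · simpa using hz
    · have h9 : z.re ^ 2 + z.im ^ 2 ≤ r ^ 2 := by
        have h10 : ‖z‖ ^ 2 ≤ r ^ 2 := by gcongr
        rw [← Complex.normSq_eq_norm_sq, Complex.normSq_apply] at h10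
        nlinarith
      rw [hz] at h9
      have : z.im ^ 2 ≤ 0 := by linarith
      simpa using pow_eq_zero_iff (n := 2) two_ne_zero |>.1 (le_antisymm this (sq_nonneg _))
  have h9 : f 1 = 1 := by
    have := hval (f 1) 1 zero_le_one h7 h2
    simpa using this
  have h10 : f P = ‖P‖ := hval (f P) ‖P‖ (norm_nonneg _) h8 h3
  refine ⟨fun a => f (a : Unitization ℂ A), ⟨fun a b => ?_, fun c a => ?_, fun a => ?_,
    fun a => ?_⟩, ?_⟩
  · show f ((a + b : A) : Unitization ℂ A) = _
    rw [Unitization.inr_add, map_add]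
  · show f ((c • a : A) : Unitization ℂ A) = _
    rw [Unitization.inr_smul, map_smul, smul_eq_mul]
  · exact (hb _).trans (Unitization.norm_inr _).le
  · show 0 ≤ f ((star a * a : A) : Unitization ℂ A)
    rw [Unitization.inr_mul, Unitization.inr_star]
    exact dual_pos f hf.le h9 _
  · show f P = _
    rw [h10, hPn]

/-- the sum of two orthogonal selfadjoint contractions is a contraction -/
theorem norm_orth {u v : B} (hu : star u = u) (hv : star v = v) (huv : u * v = 0)
    (h1 : ‖u‖ ≤ 1) (h2 : ‖v‖ ≤ 1) : ‖u + v‖ ≤ 1 := by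
  have key : ∀ n : ℕ, ∀ u v : B, star u = u → star v = v → u * v = 0 → ‖u‖ ≤ 1 → ‖v‖ ≤ 1 →
      ‖u + v‖ ^ (2 ^ n) ≤ 2 := by
    intro n
    induction n with
    | zero =>
      intro u v _ _ _ h1 h2
      rw [pow_zero, pow_one]
      exact (norm_add_le _ _).trans (by linarith)
    | succ n ih =>
      intro u v hu hv huv h1 h2
      have hvu : v * u = 0 := by
        have := congrArg star huv
        rwa [star_mul, hu, hv, star_zero] at this
      have h3 : (u + v) * (u + v) = u * u + v * v := by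
        rw [add_mul, mul_add, mul_add, huv, hvu]; abel
      have h4 : ‖u + v‖ ^ 2 = ‖u * u + v * v‖ := by
        rw [← h3, sq, ← CStarRing.norm_star_mul_self, star_add, hu, hv]
      rw [pow_succ, mul_comm, pow_mul, h4]
      refine ih _ _ (by rw [star_mul, hu]) (by rw [star_mul, hv]) ?_ ?_ ?_
      · rw [mul_assoc, ← mul_assoc u v v, huv, zero_mul, mul_zero]
      · exact (norm_mul_le _ _).trans (mul_le_one₀ h1 (norm_nonneg _) h1)
      · exact (norm_mul_le _ _).trans (mul_le_one₀ h2 (norm_nonneg _) h2)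
  by_contra hcon
  push Not at hcon
  obtain ⟨n, hn⟩ := pow_unbounded_of_one_lt 2 hcon
  have h3 := key n u v hu hv huv h1 h2
  have h4 : ‖u + v‖ ^ n ≤ ‖u + v‖ ^ (2 ^ n) := pow_le_pow_right₀ hcon.le Nat.lt_two_pow_self.le
  linarith

theorem qs_orth {φ : B → ℂ} (h : φ ∈ QuasiStates B) {a b : B} (ha : star a = a) (ha1 : ‖a‖ ≤ 1)
    (hφ : φ (a * a) = 1) (hab : a * star b = 0) : φ b = 0 := by
  rcases eq_or_ne b 0 with rfl | hb
  · exact qs_zero h
  apply qs_null h
  have hb0 : star b * b ≠ 0 := fun h => hb (star_mul_self_eq_zero' h)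
  set s : ℝ := ‖star b * b‖ with hs
  have hs0 : 0 < s := norm_pos_iff.2 hb0
  have hpos := h.2.2.2 b
  obtain ⟨hre, him⟩ := Complex.le_def.1 hpos
  have h1 : ‖a * a + ((s⁻¹ : ℝ) : ℂ) • (star b * b)‖ ≤ 1 := by
    refine norm_orth (by rw [star_mul, ha]) ?_ ?_ ?_ ?_
    · rw [star_smul, star_mul, star_star, Complex.star_def, Complex.conj_ofReal]
    · rw [mul_smul_comm, mul_assoc, ← mul_assoc a (star b) b, hab, zero_mul, mul_zero, smul_zero]
    · exact (norm_mul_le _ _).trans (mul_le_one₀ ha1 (norm_nonneg _) ha1)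
    · rw [norm_smul, Complex.norm_real, Real.norm_of_nonneg (by positivity), ← hs,
        inv_mul_cancel₀ hs0.ne']
  have h2 := (h.2.2.1 _).trans h1
  rw [h.1, h.2.1, hφ] at h2
  have h3 := (Complex.re_le_norm _).trans h2
  rw [Complex.add_re, Complex.one_re, Complex.re_ofReal_mul] at h3
  have h4 : s⁻¹ * (φ (star b * b)).re ≤ 0 := by linarith
  have h5 : (φ (star b * b)).re ≤ 0 := by
    by_contra hc
    push Not at hc
    have : 0 < s⁻¹ * (φ (star b * b)).re := by positivity
    linarith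
  apply Complex.ext
  · show (φ (star b * b)).re = 0
    exact le_antisymm h5 hre
  · exact him.symm

/-- a pure state at the end of a nested sequence -/
theorem exists_pure (a : ℕ → B) (hs : ∀ k, star (a k) = a k) (ha1 : ∀ k, ‖a k‖ ≤ 1)
    (ha : ∀ k, a k * a (k + 1) = a (k + 1)) (h0 : ∀ k, a k ≠ 0) :
    ∃ φ : B → ℂ, IsPureState φ ∧ ∀ k, φ (a k * a k) = 1 := by
  let F : ℕ → Set (B → ℂ) := fun k => {φ | φ ∈ QuasiStates B ∧ φ (a k * a k) = 1}
  have hnorm : ∀ k, ‖a k * a k‖ = 1 := by
    intro k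
    have h1 : ‖a (k + 1)‖ ≤ ‖a k‖ * ‖a (k + 1)‖ := by
      conv_lhs => rw [← ha k]
      exact norm_mul_le _ _
    have h2 : 0 < ‖a (k + 1)‖ := norm_pos_iff.2 (h0 _)
    have h3 : 1 ≤ ‖a k‖ := by
      by_contra hc
      push Not at hc
      nlinarith
    have h4 : ‖a k‖ = 1 := le_antisymm (ha1 k) h3
    have h5 : ‖star (a k) * a k‖ = ‖a k‖ * ‖a k‖ := CStarRing.norm_star_mul_self
    rw [hs k, h4, one_mul] at h5
    exact h5
  have hcl : ∀ k, IsClosed (F k) := fun k =>
    qs_compact.isClosed.inter (isClosed_eq (continuous_apply _) continuous_const)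
  have hmono : ∀ k, F (k + 1) ⊆ F k := by
    rintro k φ ⟨hφ, h1⟩
    refine ⟨hφ, ?_⟩
    let _ := CStarAlgebra.spectralOrder B
    have _ := CStarAlgebra.spectralOrderedRing B
    have hya : a (k + 1) * a k = a (k + 1) := by
      have := congrArg star (ha k)
      rwa [star_mul, hs, hs] at this
    have h2 : star (a k) * (a (k + 1) * a (k + 1)) * a k ≤
        ‖a (k + 1) * a (k + 1)‖ • (star (a k) * a k) :=
      CStarAlgebra.star_left_conjugate_le_norm_smul (by
        show star _ = _
        rw [star_mul, hs])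
    have h3 : star (a k) * (a (k + 1) * a (k + 1)) * a k = a (k + 1) * a (k + 1) := by
      rw [hs, ← mul_assoc, ha k, mul_assoc, hya]
    rw [h3, hnorm, one_smul, hs] at h2
    obtain ⟨w, hw⟩ := CStarAlgebra.nonneg_iff_eq_star_mul_self.1 (sub_nonneg.2 h2)
    have h4 := hφ.2.2.2 w
    rw [← hw, qs_sub hφ, h1] at h4
    obtain ⟨h5, h6⟩ := Complex.le_def.1 h4
    have h7 := (Complex.re_le_norm _).trans ((hφ.2.2.1 (a k * a k)).trans (hnorm k).le)
    rw [Complex.sub_re, Complex.one_re, Complex.zero_re] at h5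
    rw [Complex.sub_im, Complex.one_im, Complex.zero_im] at h6
    apply Complex.ext
    · rw [Complex.one_re]; linarith
    · rw [Complex.one_im]; linarith
  have hne : (⋂ k, F k).Nonempty :=
    IsCompact.nonempty_iInter_of_sequence_nonempty_isCompact_isClosed F hmono
      (fun k => by
        obtain ⟨φ, h1, h2⟩ := exists_norming (a k)
        rw [hs, hnorm, Complex.ofReal_one] at h2
        exact ⟨φ, h1, h2⟩)
      (qs_compact.of_isClosed_subset (hcl 0) fun φ h => h.1) hcl
  have hcomp : IsCompact (⋂ k, F k) :=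
    qs_compact.of_isClosed_subset (isClosed_iInter hcl) fun φ h => (Set.mem_iInter.1 h 0).1
  obtain ⟨φ, hφ⟩ := hcomp.extremePoints_nonempty hne
  have hext : IsExtreme ℝ (QuasiStates B) (⋂ k, F k) := by
    refine ⟨fun φ h => (Set.mem_iInter.1 h 0).1, ?_⟩
    intro x hx y hy z hz hxyz
    rw [Set.mem_iInter] at hz ⊢
    intro k
    refine ⟨hx, ?_⟩
    obtain ⟨α, β, hα, hβ, hαβ, rfl⟩ := hxyz
    have h1 := (hz k).2
    have h2 : (α : ℂ) * x (a k * a k) + (β : ℂ) * y (a k * a k) = 1 := by
      have h3 : (α • x + β • y) (a k * a k) = α • x (a k * a k) + β • y (a k * a k) := rfl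
      rw [h3] at h1
      rwa [Complex.real_smul, Complex.real_smul] at h1
    have h3 := congrArg Complex.re h2
    rw [Complex.add_re, Complex.re_ofReal_mul, Complex.re_ofReal_mul, Complex.one_re] at h3
    have h4 := (Complex.re_le_norm _).trans ((hx.2.2.1 (a k * a k)).trans (hnorm k).le)
    have h5 := (Complex.re_le_norm _).trans ((hy.2.2.1 (a k * a k)).trans (hnorm k).le)
    have h6 := hx.2.2.2 (a k)
    rw [hs] at h6
    obtain ⟨-, h7⟩ := Complex.le_def.1 h6
    apply Complex.ext
    · rw [Complex.one_re]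
      by_contra hc
      have h8 : (x (a k * a k)).re < 1 := lt_of_le_of_ne h4 hc
      nlinarith
    · rw [Complex.one_im, ← h7, Complex.zero_im]
  refine ⟨φ, ⟨hext.extremePoints_subset_extremePoints hφ, a 0 * a 0, ?_⟩, fun k =>
    (Set.mem_iInter.1 hφ.1 k).2⟩
  rw [(Set.mem_iInter.1 hφ.1 0).2]
  exact one_ne_zero

/-- pure states of quotients -/
theorem pure_comp (q : A →⋆ₙₐ[ℂ] B) (hq : Function.Surjective q) {φ : B → ℂ}
    (hφ : IsPureState φ) : IsPureState (fun a => φ (q a)) := by
  obtain ⟨⟨hφ1, hφ2⟩, b, hb⟩ := hφ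
  refine ⟨⟨⟨fun a b => ?_, fun c a => ?_, fun a => ?_, fun a => ?_⟩, ?_⟩, ?_⟩
  · simp only [map_add]; exact hφ1.1 _ _
  · simp only [map_smul]; exact hφ1.2.1 _ _
  · exact (hφ1.2.2.1 _).trans (NonUnitalStarAlgHom.norm_apply_le q a)
  · simp only [map_mul, map_star]; exact hφ1.2.2.2 _
  · intro ψ₁ h1 ψ₂ h2 hseg
    obtain ⟨α, β, hα, hβ, hαβ, hsum⟩ := hseg
    have hval : ∀ a, (α : ℂ) * ψ₁ a + (β : ℂ) * ψ₂ a = φ (q a) := by
      intro a
      have h3 := congrFun hsum a
      have h4 : (α • ψ₁ + β • ψ₂) a = α • ψ₁ a + β • ψ₂ a := rfl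
      rw [h4, Complex.real_smul, Complex.real_smul] at h3
      exact h3
    -- both vanish on the kernel
    have hker : ∀ x, q x = 0 → ψ₁ x = 0 ∧ ψ₂ x = 0 := by
      intro x hx
      have h3 := hval (star x * x)
      rw [map_mul, hx, mul_zero, qs_zero hφ1] at h3
      obtain ⟨h4, h5⟩ := Complex.le_def.1 (h1.2.2.2 x)
      obtain ⟨h6, h7⟩ := Complex.le_def.1 (h2.2.2.2 x)
      have h8 := congrArg Complex.re h3
      rw [Complex.add_re, Complex.re_ofReal_mul, Complex.re_ofReal_mul, Complex.zero_re] at h8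
      rw [Complex.zero_re] at h4 h6
      rw [Complex.zero_im] at h5 h7
      have h9 : (ψ₁ (star x * x)).re = 0 := by
        by_contra hc
        have h10 : 0 < (ψ₁ (star x * x)).re := lt_of_le_of_ne h4 (Ne.symm hc)
        have h11 : 0 < α * (ψ₁ (star x * x)).re := mul_pos hα h10
        have h12 : 0 ≤ β * (ψ₂ (star x * x)).re := mul_nonneg hβ.le h6
        linarith
      have h10 : (ψ₂ (star x * x)).re = 0 := by
        by_contra hc
        have h10 : 0 < (ψ₂ (star x * x)).re := lt_of_le_of_ne h6 (Ne.symm hc)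
        have h11 : 0 < β * (ψ₂ (star x * x)).re := mul_pos hβ h10
        have h12 : 0 ≤ α * (ψ₁ (star x * x)).re := mul_nonneg hα.le h4
        linarith
      exact ⟨qs_null h1 (Complex.ext h9 h5.symm), qs_null h2 (Complex.ext h10 h7.symm)⟩
    -- descend
    let r : B → A := Function.surjInv hq
    have hr : ∀ b, q (r b) = b := Function.surjInv_eq hq
    have desc : ∀ ψ ∈ QuasiStates A, (∀ x, q x = 0 → ψ x = 0) →
        (fun b => ψ (r b)) ∈ QuasiStates B ∧ ∀ a, ψ (r (q a)) = ψ a := by
      intro ψ hψ hk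
      have hinv : ∀ x y, q x = q y → ψ x = ψ y := by
        intro x y hxy
        have := hk (x - y) (by rw [map_sub, hxy, sub_self])
        rw [qs_sub hψ] at this
        exact sub_eq_zero.1 this
      refine ⟨⟨fun a b => ?_, fun c a => ?_, fun a => ?_, fun a => ?_⟩, fun a => hinv _ _ (hr _)⟩
      · rw [← hψ.1]
        exact hinv _ _ (by rw [hr, map_add, hr, hr])
      · rw [← hψ.2.1]
        exact hinv _ _ (by rw [hr, map_smul, hr])
      · rcases eq_or_ne a 0 with rfl | ha
        · show ‖ψ (r 0)‖ ≤ ‖(0 : B)‖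
          rw [hk (r 0) (hr 0), norm_zero, norm_zero]
        · obtain ⟨y, hy, hyn⟩ := exists_lift q (r a) (norm_pos_iff.2 ha) (by rw [hr])
          show ‖ψ (r a)‖ ≤ ‖a‖
          rw [hinv (r a) y hy.symm]
          exact (hψ.2.2.1 y).trans hyn
      · have h3 := hψ.2.2.2 (r a)
        rw [hinv (star (r a) * r a) (r (star a * a)) (by rw [hr, map_mul, map_star, hr])] at h3
        exact h3
    obtain ⟨d1, e1⟩ := desc ψ₁ h1 fun x hx => (hker x hx).1
    obtain ⟨d2, e2⟩ := desc ψ₂ h2 fun x hx => (hker x hx).2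
    have h3 := hφ2 d1 d2 ⟨α, β, hα, hβ, hαβ, by
      funext b
      have h4 : (α • (fun b => ψ₁ (r b)) + β • (fun b => ψ₂ (r b))) b =
        α • ψ₁ (r b) + β • ψ₂ (r b) := rfl
      rw [h4, Complex.real_smul, Complex.real_smul, hval, hr]⟩
    funext a
    rw [← e1 a]
    exact congrFun h3 (q a)
  · obtain ⟨a, rfl⟩ := hq b
    exact ⟨a, hb⟩

end

end Vale.Agent.P133.H198
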